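import Crest.Agent.Lib.Bc.Q4I.BridgeData
import Crest.Agent.Lib.Bc.Q4I.Cert.Data
/-! The identity of the bilinear forms in the elementary symmetric functions of both points (helper21, row 163, Q4I). -/
set_option autoImplicit false
namespace Crest.Agent.Lib.Bc.Q4I.BridgeData

open Crest.Agent.Lib.Bc.BernCert Crest.Agent.Lib.Bc.BernCert.Bridge Crest.Agent.Lib.Bc.SymAvg

set_option maxRecDepth 1000000 in
theorem form_ok : Crest.Agent.Lib.Bc.PolyFast.check 8 (.num 1 * bilE rows - .num 1728 * crossE X) (.num 96 * formE Cert.cfg) = true := by decide +kernel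

end Crest.Agent.Lib.Bc.Q4I.BridgeData
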