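import Crest.Agent.Lib.Bc.Q4I.Pf
import Crest.Agent.Lib.Bc.Q4I.FormOk
import Crest.Agent.Lib.Bc.Q4I.AlphaData
import Crest.Agent.Lib.Bc.Q4I.Cert.Chk
import Crest.Agent.Lib.Bc.Q4Point
import Crest.Agent.Lib.Bc.Cert4Bridge
/-!
# Row 163: `Q4I` (helper21)

`α' g + α g' ≤ Esig 4 g` on `Simp 4 × Simp 4`, `g = gF`.  `Pf` is a polynomial minorant of `Z g(y)` on the region of
`Q4Point`; the relabelling average of `Pf` is diagonal in the monomial symmetric functions (`SymAvg`), the bilinear form in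
the elementary symmetric functions is nonnegative by `BernCert` (`Cert.chk`).  The pointwise inequality `hP` is a hypothesis here.
-/
set_option autoImplicit false
set_option linter.unusedSimpArgs false
open scoped BigOperators
namespace Crest.Agent.Lib.Bc.Q4I
open Crest.Agent.Lib.Bc
open Crest.Agent.Lib.Bc.SymAvg Crest.Agent.Lib.Bc.Q4Inv Crest.Agent.Lib.Bc.BernCert Crest.Agent.Lib.Bc.BernCert.Bridge
open Crest.Agent.Lib.Bc.PolyFast (E den den_add' den_sub' den_mul' den_neg' den_pow' den_var' den_num')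

/-- the multiplier of `Q4I` -/
noncomputable def alphaF (x : Fin 4 → ℝ) : ℝ :=
  1 + (-3/1024 : ℝ) * fF x + (-3249/1024 : ℝ) * (1 - 16 * e34 x) + (433/512 : ℝ) * (1 - 256 * e44 x) + (269/512 : ℝ) * fF x ^ 2 + (-2985/512 : ℝ) * fF x * (1 - 16 * e34 x) + (5265/1024 : ℝ) * fF x * (1 - 256 * e44 x) + (3653/512 : ℝ) * (1 - 16 * e34 x) ^ 2 + (-3725/512 : ℝ) * (1 - 16 * e34 x) * (1 - 256 * e44 x) + (1933/1024 : ℝ) * (1 - 256 * e44 x) ^ 2

lemma pt_e (x : Fin 4 → ℝ) : (pt x).e1 = e14 x ∧ (pt x).e2 = e24 x ∧ (pt x).e3 = e34 x ∧ (pt x).e4 = e44 x :=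
  ⟨rfl, rfl, rfl, rfl⟩

/-- the value of the table `GLst` -/
lemma polyR_G (x : Fin 4 → ℝ) (h : e14 x = 1) : polyR BridgeData.GLst (pt x) = gF x := by
  obtain ⟨e1, e2, e3, e4⟩ := pt_e x
  simp only [BridgeData.GLst, polyR, Ee, e1, e2, e3, e4, h]
  simp only [gF, piF, fF]
  push_cast
  ring

/-- the value of the table `ALst` -/
lemma polyR_A (x : Fin 4 → ℝ) (h : e14 x = 1) : polyR BridgeData.ALst (pt x) = 9216 * alphaF x := by
  obtain ⟨e1, e2, e3, e4⟩ := pt_e x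
  simp only [BridgeData.ALst, polyR, Ee, e1, e2, e3, e4, h]
  simp only [alphaF, fF]
  push_cast
  ring

/-- the expression `eP` is `27648 Pf` -/
lemma den_eP (p : Fin 4 → ℝ) :
    den (vec4 p) BridgeData.eP = 27648 * Pf (4 * e14 p) ((128 / 3) * e24 p) (1024 * e34 p) := by
  simp only [BridgeData.eP, den_add', den_mul', den_pow', den_num', den_e1E4, den_e2E4, den_e3E4]
  simp only [Pf, Rf, P00, P01, P10, P11, P20, P21, P30, P31, P40]
  push_cast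
  ring

/-- **Q4I**, from the pointwise inequality -/
theorem I_of_hP (hP : ∀ Z u η : ℝ, 0 < Z → Z ≤ 4 → 0 ≤ u → u ≤ 1 → u * Z ≤ (2 / 3) * (4 - Z) → 0 ≤ η → η ≤ u ^ 2 →
      Pf Z (u * Z ^ 2) (η * Z ^ 3) ≤ Z * (7 + 26 * η - 27 * u ^ 2 - 6 * u * η))
    {x x' : Fin 4 → ℝ} (hx : x ∈ Simp 4) (hx' : x' ∈ Simp 4) :
    alphaF x' * gF x + alphaF x * gF x' ≤ Esig 4 gF x x' := by
  have h1 := Q4Point.le_Esig_of_region Pf hP Pf_zero hx hx'
  have h2 := bridge_le BridgeData.eP 24 BridgeData.rows BridgeData.X 1 1728 96 Cert.cfg BridgeData.tab_ok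
    BridgeData.rows_ok BridgeData.form_ok Cert.T Cert.chk (by norm_num) hx hx'
  have he := e14_eq_one hx
  have he' := e14_eq_one hx'
  have hc : crossR BridgeData.X (pt x) (pt x') = 9216 * (alphaF x' * gF x + alphaF x * gF x') := by
    simp only [BridgeData.X, crossR, polyR_G x he, polyR_G x' he', polyR_A x he, polyR_A x' he']
    ring
  rw [hc] at h2
  simp only [den_eP] at h2
  rw [← Finset.mul_sum] at h2
  push_cast at h2
  refine le_trans ?_ h1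
  linarith

/-- the value of `alphaF` as a form -/
theorem alphaF_eq (x : Fin 4 → ℝ) (h : e14 x = 1) :
    alphaF x = (1 / 9216 : ℝ) * formR AlphaData.cfg (vals AlphaData.cfg (pt x)) (vals AlphaData.cfg (⟨1, 0, 0, 0⟩ : Pt ℝ)) := by
  obtain ⟨e1, e2, e3, e4⟩ := pt_e x
  have v1 : (⟨1, 0, 0, 0⟩ : Pt ℝ).e1 = 1 := by simp [Pt.e1]
  have v2 : (⟨1, 0, 0, 0⟩ : Pt ℝ).e2 = 0 := by simp [Pt.e2]
  have v3 : (⟨1, 0, 0, 0⟩ : Pt ℝ).e3 = 0 := by simp [Pt.e3]
  have v4 : (⟨1, 0, 0, 0⟩ : Pt ℝ).e4 = 0 := by simp [Pt.e4]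
  simp only [formR, vals, AlphaData.cfg, AlphaData.monos, AlphaData.cp, AlphaData.cm, List.map_cons,
    List.map_nil, pr, Ee, e1, e2, e3, e4, h, v1, v2, v3, v4]
  simp only [alphaF, fF]
  push_cast
  ring

/-- the multiplier is nonnegative -/
theorem alphaF_nonneg {x : Fin 4 → ℝ} (hx : x ∈ Simp 4) : 0 ≤ alphaF x := by
  have h0 := cert_of_pos AlphaData.cfg AlphaData.pos (x 0) (x 1) (x 2) (x 3) 1 0 0 0
    (hx.1 0) (hx.1 1) (hx.1 2) (hx.1 3) (by norm_num) le_rfl le_rfl le_rfl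
  rw [alphaF_eq x (e14_eq_one hx)]
  exact mul_nonneg (by norm_num) h0

/-- the multiplier is bounded on the simplex -/
theorem bdd_alphaF : SLaw.BddS alphaF :=
  Q4Glue.bdd_of_e (fun t => 1 + ((-3/1024 : ℝ) * (1 - (8 / 3) * t.1) + (-3249/1024 : ℝ) * (1 - 16 * t.2.1) + (433/512 : ℝ) * (1 - 256 * t.2.2) + (269/512 : ℝ) * (1 - (8 / 3) * t.1) ^ 2 + (-2985/512 : ℝ) * (1 - (8 / 3) * t.1) * (1 - 16 * t.2.1) + (5265/1024 : ℝ) * (1 - (8 / 3) * t.1) * (1 - 256 * t.2.2) + (3653/512 : ℝ) * (1 - 16 * t.2.1) ^ 2 + (-3725/512 : ℝ) * (1 - 16 * t.2.1) * (1 - 256 * t.2.2) + (1933/1024 : ℝ) * (1 - 256 * t.2.2) ^ 2)) (by fun_prop)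
    (fun x => by simp only [alphaF, fF]; ring)

end Crest.Agent.Lib.Bc.Q4I
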