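import Mathlib
/-!
# Row 163, Q4I: the polynomial minorant `Pf` of `Z G(y)` (helper21)

`w = Z - 1`, `Pf Z ν ξ = T1 + w² R`, `T1` the first order Taylor polynomial of `Z G(y)` at `Z = 1`,
`R = ∑ ν^a ξ^b P_ab(w)` from a linear program.  The data are `scratch/h21q4/q4i_final.json` on `origin/helper21`.
-/
set_option autoImplicit false
namespace Crest.Agent.Lib.Bc.Q4I

/-- the coefficient of `ν^0 ξ^0` in `R` -/
noncomputable def P00 (w : ℝ) : ℝ :=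
  (-551/2048) + (263/256) * w ^ 1 + (-1911/2048) * w ^ 2 + (-6289/2048) * w ^ 3 + (7635/2048) * w ^ 4 + (147/2048) * w ^ 5 + (-3299/1024) * w ^ 6 + (645/256) * w ^ 7 + (-393/512) * w ^ 8 + (171/2048) * w ^ 9

/-- the coefficient of `ν^0 ξ^1` in `R` -/
noncomputable def P01 (w : ℝ) : ℝ :=
  (89385/2048) + (304445/2048) * w ^ 1 + (-405057/2048) * w ^ 2 + (-148517/256) * w ^ 3 + (1558705/2048) * w ^ 4 + (-576475/2048) * w ^ 5 + (66767/2048) * w ^ 6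

/-- the coefficient of `ν^1 ξ^0` in `R` -/
noncomputable def P10 (w : ℝ) : ℝ :=
  (1109/2048) + (-7915/1024) * w ^ 1 + (-14859/2048) * w ^ 2 + (224541/2048) * w ^ 3 + (-345589/2048) * w ^ 4 + (55899/512) * w ^ 5 + (-66471/2048) * w ^ 6 + (7393/2048) * w ^ 7

/-- the coefficient of `ν^1 ξ^1` in `R` -/
noncomputable def P11 (w : ℝ) : ℝ :=
  (3353/2048) + (-826723/2048) * w ^ 1 + (786647/1024) * w ^ 2 + (143409/1024) * w ^ 3 + (-122387/512) * w ^ 4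

/-- the coefficient of `ν^2 ξ^0` in `R` -/
noncomputable def P20 (w : ℝ) : ℝ :=
  (-329879/2048) + (150225/512) * w ^ 1 + (-490379/1024) * w ^ 2 + (837183/2048) * w ^ 3 + (-335919/2048) * w ^ 4 + (50847/2048) * w ^ 5

/-- the coefficient of `ν^2 ξ^1` in `R` -/
noncomputable def P21 (w : ℝ) : ℝ :=
  (-47329/2048) + (449051/2048) * w ^ 1 + (-195101/512) * w ^ 2

/-- the coefficient of `ν^3 ξ^0` in `R` -/
noncomputable def P30 (w : ℝ) : ℝ :=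
  (-47/8) + (34367/2048) * w ^ 1 + (21047/1024) * w ^ 2 + (-30049/2048) * w ^ 3

/-- the coefficient of `ν^3 ξ^1` in `R` -/
noncomputable def P31 (w : ℝ) : ℝ :=
  (-945/512)

/-- the coefficient of `ν^4 ξ^0` in `R` -/
noncomputable def P40 (w : ℝ) : ℝ :=
  (3015/2048) + (-12165/2048) * w ^ 1

/-- the remainder part of the minorant -/
noncomputable def Rf (w ν ξ : ℝ) : ℝ :=
  P00 w + ξ ^ 1 * P01 w + ν ^ 1 * P10 w + ν ^ 1 * ξ ^ 1 * P11 w + ν ^ 2 * P20 w + ν ^ 2 * ξ ^ 1 * P21 w + ν ^ 3 * P30 w + ν ^ 3 * ξ ^ 1 * P31 w + ν ^ 4 * P40 w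

/-- the minorant of `Z G(y)` -/
noncomputable def Pf (Z ν ξ : ℝ) : ℝ :=
  7 + 26 * ξ - 27 * ν ^ 2 - 6 * ν * ξ + (Z - 1) * (7 - 52 * ξ + 81 * ν ^ 2 + 24 * ν * ξ)
    + (Z - 1) ^ 2 * Rf (Z - 1) ν ξ

/-- the value at `0` -/
theorem Pf_zero : Pf 0 0 0 ≤ 0 := by
  norm_num [Pf, Rf, P00, P01, P10, P11, P20, P21, P30, P31, P40]

end Crest.Agent.Lib.Bc.Q4I
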